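import Vale.Agent.P004.H503.Iface3
import Vale.Agent.P004.V6a
import Vale.Agent.P004.L2b

/-!
# P004: module Z, the final statement from the bound for one block
-/

open Real MeasureTheory Set Filter
open scoped ENNReal Topology

namespace P004

namespace Fin3

/-- the first part of the final statement -/
def StLf : Prop :=
  ∀ D : ℤ, IsFund D → IsLFunction D (LTwist D) ∧ (∀ L, IsLFunction D L → L = LTwist D) ∧
    analyticOrderAt (LTwist D) 1 = (aRank D : ℕ∞)

/-- the second part of the final statement -/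
def StTl3 : Prop :=
  ∃ c : ℝ, 0 < c ∧ ∀ B : ℕ, ∃ C : ℝ, 0 < C ∧ ∀ X : ℕ, 3 ≤ X → ∀ z : ℝ, 0 ≤ z →
    (((Fam X).filter (fun D => z ≤ (aRank D : ℝ))).card : ℝ) ≤
      C * ((Fam X).card : ℝ) * (Real.exp (-c * √z) + Real.log X ^ (-(B : ℝ)))

open scoped Classical in
/-- the exceptional set of one dyadic block -/
noncomputable def blk (Y r : ℕ) : Finset ℕ := (sqf Y).filter (fun m => Y < 2 * m ∧ Van m r)

open scoped Classical in
lemma cover (X r : ℕ) : (sqf X).filter (fun m => Van m r) ⊆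
    Finset.Icc 1 (Nat.sqrt X) ∪
      ((Finset.range (Nat.log 2 X + 1)).filter (fun i => Nat.sqrt X < X / 2 ^ i)).biUnion
        (fun i => blk (X / 2 ^ i) r) := by
  intro m hm
  rw [Finset.mem_filter] at hm
  obtain ⟨hm, hV⟩ := hm
  unfold sqf at hm
  rw [Finset.mem_filter, Finset.mem_Icc] at hm
  obtain ⟨⟨hm1, hmX⟩, hsq⟩ := hm
  rw [Finset.mem_union]
  by_cases hs : m ≤ Nat.sqrt X
  · left
    exact Finset.mem_Icc.2 ⟨hm1, hs⟩
  · right
    push Not at hs
    have hq : X / m ≠ 0 := by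
      have := Nat.div_pos hmX hm1
      omega
    set i := Nat.log 2 (X / m) with hi
    have h1 : 2 ^ i ≤ X / m := Nat.pow_log_le_self 2 hq
    have h2 : X / m < 2 ^ (i + 1) := Nat.lt_pow_succ_log_self (by norm_num) _
    have h3 : m ≤ X / 2 ^ i := by
      rw [Nat.le_div_iff_mul_le (by positivity)]
      have := (Nat.le_div_iff_mul_le hm1).1 h1
      linarith [mul_comm m (2 ^ i)]
    have h4 : X / 2 ^ i < 2 * m := by
      rw [Nat.div_lt_iff_lt_mul (by positivity)]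
      have := (Nat.div_lt_iff_lt_mul hm1).1 h2
      rw [pow_succ] at this
      linarith [mul_comm m (2 ^ i)]
    rw [Finset.mem_biUnion]
    refine ⟨i, ?_, ?_⟩
    · rw [Finset.mem_filter, Finset.mem_range]
      refine ⟨?_, lt_of_lt_of_le hs h3⟩
      have : i ≤ Nat.log 2 X := Nat.log_mono_right (Nat.div_le_self X m)
      omega
    · unfold blk sqf
      rw [Finset.mem_filter, Finset.mem_filter, Finset.mem_Icc]
      exact ⟨⟨⟨hm1, h3⟩, hsq⟩, h4, hV⟩

lemma sum_half (X n : ℕ) : ∑ i ∈ Finset.range n, ((X / 2 ^ i : ℕ) : ℝ) ≤ 2 * X := by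
  have h1 : ∀ i : ℕ, ((X / 2 ^ i : ℕ) : ℝ) ≤ X * (1 / 2 : ℝ) ^ i := by
    intro i
    refine Nat.cast_div_le.trans (le_of_eq ?_)
    push_cast
    rw [div_pow, one_pow]
    ring
  refine (Finset.sum_le_sum fun i _ => h1 i).trans ?_
  rw [← Finset.mul_sum]
  have h2 : ∑ i ∈ Finset.range n, (1 / 2 : ℝ) ^ i ≤ 2 := by
    have := geom_sum_eq (show (1 / 2 : ℝ) ≠ 1 by norm_num) n
    rw [this]
    have : 0 < (1 / 2 : ℝ) ^ n := by positivity
    rw [div_le_iff_of_neg (by norm_num)]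
    linarith
  have : (0 : ℝ) ≤ X := Nat.cast_nonneg _
  nlinarith

lemma three_le {X Y i : ℕ} (hX : 3 ≤ X) (hY : Y = X / 2 ^ i) (h : Nat.sqrt X < Y) : 3 ≤ Y := by
  by_cases h4 : 4 ≤ X
  · have : 2 ≤ Nat.sqrt X := Nat.le_sqrt.2 (by omega)
    omega
  · have hX3 : X = 3 := by omega
    subst hX3
    have h1 : 1 ≤ Nat.sqrt 3 := Nat.le_sqrt.2 (by norm_num)
    rcases Nat.eq_zero_or_pos i with h0 | h0
    · subst h0; simp at hY; omega
    · exfalso
      have h2 : 2 ≤ 2 ^ i := by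
        calc 2 = 2 ^ 1 := (pow_one 2).symm
          _ ≤ 2 ^ i := Nat.pow_le_pow_right (by norm_num) h0
      have h3 : 3 / 2 ^ i ≤ 3 / 2 := Nat.div_le_div_left h2 (by norm_num)
      have h5 : 3 / 2 = 1 := by norm_num
      omega

lemma log_half {X Y : ℕ} (hX : 3 ≤ X) (h : Nat.sqrt X < Y) : Real.log X / 2 ≤ Real.log Y := by
  have hX0 : (0 : ℝ) < X := by exact_mod_cast (by omega : 0 < X)
  have h1 : X < Y * Y := Nat.sqrt_lt.1 h
  have h2 : (X : ℝ) ≤ (Y : ℝ) ^ 2 := by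
    rw [sq]; exact_mod_cast h1.le
  have h3 := Real.log_le_log hX0 h2
  rw [Real.log_pow] at h3
  push_cast at h3
  linarith

/-- a power of the logarithm against the square root -/
lemma pow_log_le (B : ℕ) {x : ℝ} (hx : 1 ≤ x) :
    Real.log x ^ B ≤ (2 * (B + 1) : ℝ) ^ B * √x := by
  have hx0 : 0 < x := by linarith
  set ε : ℝ := 1 / (2 * (B + 1)) with hε
  have hε0 : 0 < ε := by positivity
  have h1 : Real.log x ≤ x ^ ε / ε := Real.log_le_rpow_div hx0.le hε0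
  have h2 : Real.log x ^ B ≤ (x ^ ε / ε) ^ B := pow_le_pow_left₀ (Real.log_nonneg hx) h1 B
  refine h2.trans ?_
  rw [div_pow, ← Real.rpow_natCast (x ^ ε), ← Real.rpow_mul hx0.le, div_eq_mul_inv, ← inv_pow,
    mul_comm]
  have e : ε⁻¹ = 2 * (B + 1) := by rw [hε, one_div, inv_inv]
  rw [e]
  apply mul_le_mul_of_nonneg_left _ (by positivity)
  rw [Real.sqrt_eq_rpow]
  apply Real.rpow_le_rpow_of_exponent_le hx
  rw [hε, one_div_mul_eq_div, div_le_div_iff₀ (by positivity) (by norm_num)]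
  linarith

open scoped Classical in
/-- the count of the exceptional `m` -/
lemma count_m (hB : StBlock) : ∃ c : ℝ, 0 < c ∧ ∀ B : ℕ, ∃ C : ℝ, 0 < C ∧ ∀ X r : ℕ, 3 ≤ X →
    (((sqf X).filter (fun m => Van m r)).card : ℝ) ≤
      C * X * (Real.exp (-c * √r) + Real.log X ^ (-(B : ℝ))) := by
  obtain ⟨c, hc, h⟩ := hB
  refine ⟨c, hc, fun B => ?_⟩
  obtain ⟨C, hC, h⟩ := h B
  refine ⟨2 * C * 2 ^ B + (2 * (B + 1) : ℝ) ^ B, by positivity, fun X r hX => ?_⟩
  have hX1 : (1 : ℝ) ≤ X := by exact_mod_cast (by omega : 1 ≤ X)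
  have hX0 : (0 : ℝ) < X := by linarith
  have hL1 : 1 ≤ Real.log X := V6.log_ge_one hX
  have hL0 : 0 < Real.log X := by linarith
  set E := Real.exp (-c * √r) with hE
  have hE0 : 0 < E := Real.exp_pos _
  set l := Real.log X ^ (-(B : ℝ)) with hl
  have hl0 : 0 < l := Real.rpow_pos_of_pos hL0 _
  set I := (Finset.range (Nat.log 2 X + 1)).filter (fun i => Nat.sqrt X < X / 2 ^ i) with hI
  have h1 : (((sqf X).filter (fun m => Van m r)).card : ℝ) ≤
      Nat.sqrt X + ∑ i ∈ I, ((blk (X / 2 ^ i) r).card : ℝ) := by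
    have h2 := Finset.card_le_card (cover X r)
    have h3 := h2.trans (Finset.card_union_le _ _)
    have h4 := Finset.card_biUnion_le (s := I) (t := fun i => blk (X / 2 ^ i) r)
    rw [Nat.card_Icc] at h3
    have h5 : ((sqf X).filter (fun m => Van m r)).card ≤
        Nat.sqrt X + ∑ i ∈ I, (blk (X / 2 ^ i) r).card := by
      have : Nat.sqrt X + 1 - 1 = Nat.sqrt X := by omega
      rw [this] at h3
      exact h3.trans (Nat.add_le_add_left h4 _)
    exact_mod_cast h5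
  have h2 : ∀ i ∈ I, ((blk (X / 2 ^ i) r).card : ℝ) ≤
      C * ((X / 2 ^ i : ℕ) : ℝ) * (2 ^ B * (E + l)) := by
    intro i hi
    rw [hI, Finset.mem_filter] at hi
    have h3 := three_le hX rfl hi.2
    refine (h (X / 2 ^ i) r h3).trans ?_
    apply mul_le_mul_of_nonneg_left _ (by positivity)
    have h4 := log_half hX hi.2
    have h5 : Real.log ((X / 2 ^ i : ℕ) : ℝ) ^ (-(B : ℝ)) ≤ 2 ^ B * l := by
      have e1 : Real.log ((X / 2 ^ i : ℕ) : ℝ) ^ (-(B : ℝ)) ≤ (Real.log X / 2) ^ (-(B : ℝ)) :=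
        Real.rpow_le_rpow_of_nonpos (by positivity) h4 (by simp)
      refine e1.trans (le_of_eq ?_)
      rw [Real.div_rpow hL0.le (by norm_num), Real.rpow_neg (by norm_num : (0:ℝ) ≤ 2),
        Real.rpow_natCast, div_inv_eq_mul, mul_comm]
    have h6 : (1 : ℝ) ≤ 2 ^ B := one_le_pow₀ (by norm_num)
    nlinarith
  have h3 : ∑ i ∈ I, ((blk (X / 2 ^ i) r).card : ℝ) ≤ 2 * C * 2 ^ B * X * (E + l) := by
    refine (Finset.sum_le_sum h2).trans ?_
    rw [← Finset.sum_mul, ← Finset.mul_sum]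
    have h4 : ∑ i ∈ I, ((X / 2 ^ i : ℕ) : ℝ) ≤ 2 * X := by
      refine le_trans ?_ (sum_half X (Nat.log 2 X + 1))
      exact Finset.sum_le_sum_of_subset_of_nonneg (Finset.filter_subset _ _)
        fun _ _ _ => Nat.cast_nonneg _
    calc (C * ∑ i ∈ I, ((X / 2 ^ i : ℕ) : ℝ)) * (2 ^ B * (E + l))
        ≤ (C * (2 * X)) * (2 ^ B * (E + l)) := by gcongr
      _ = _ := by ring
  have h4 : (Nat.sqrt X : ℝ) ≤ (2 * (B + 1) : ℝ) ^ B * X * l := by
    have e1 : (Nat.sqrt X : ℝ) ≤ √(X : ℝ) := Real.nat_sqrt_le_real_sqrt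
    have e2 := pow_log_le B hX1
    have e3 : l = (Real.log X ^ B)⁻¹ := by
      rw [hl, Real.rpow_neg hL0.le, Real.rpow_natCast]
    rw [e3, ← div_eq_mul_inv, le_div_iff₀ (by positivity)]
    have hs : √(X : ℝ) * √(X : ℝ) = X := Real.mul_self_sqrt hX0.le
    calc (Nat.sqrt X : ℝ) * Real.log X ^ B ≤ √(X : ℝ) * ((2 * (B + 1) : ℝ) ^ B * √(X : ℝ)) := by
          gcongr
      _ = (2 * (B + 1) : ℝ) ^ B * X := by rw [mul_left_comm, hs]
  have h5 : 0 ≤ (2 * (B + 1) : ℝ) ^ B * X * E := by positivity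
  calc (((sqf X).filter (fun m => Van m r)).card : ℝ)
      ≤ (2 * (B + 1) : ℝ) ^ B * X * l + 2 * C * 2 ^ B * X * (E + l) :=
        h1.trans (add_le_add h4 h3)
    _ ≤ _ := by
      have : (2 * C * 2 ^ B + (2 * (B + 1) : ℝ) ^ B) * X * (E + l) =
        (2 * (B + 1) : ℝ) ^ B * X * l + 2 * C * 2 ^ B * X * (E + l) +
          (2 * (B + 1) : ℝ) ^ B * X * E := by ring
      linarith

/-- the tail bound -/
theorem tail (hB : StBlock) (hV : StVan1) (hCt : StCount) : StTl3 := by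
  classical
  obtain ⟨c, hc, h⟩ := count_m hB
  obtain ⟨c3, hc3, hcount⟩ := hCt
  refine ⟨c, hc, fun B => ?_⟩
  obtain ⟨C, hC, h⟩ := h B
  refine ⟨4 * C / c3, by positivity, fun X hX z hz => ?_⟩
  have hL1 : 1 ≤ Real.log X := V6.log_ge_one hX
  have hL0 : 0 < Real.log X := by linarith
  have hcnt := hcount X hX
  have h1 := h X ⌈z⌉₊ hX
  have h2 := L2.sum_fam_le (X := X) (fun D => if z ≤ (aRank D : ℝ) then (1 : ℝ) else 0)
    (fun m => if Van m ⌈z⌉₊ then (1 : ℝ) else 0) (fun m => by split_ifs <;> norm_num) (by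
      intro D hD
      obtain ⟨hfund, habs⟩ := L2.mem_Fam hD
      obtain ⟨m, hm, hsq, hnat, hvan⟩ := hV D hfund
      have hmX : m ≤ X := by omega
      refine ⟨m, ?_, hnat, ?_⟩
      · unfold sqf
        rw [Finset.mem_filter, Finset.mem_Icc]
        exact ⟨⟨hm, hmX⟩, hsq⟩
      · by_cases hz : z ≤ (aRank D : ℝ)
        · have : Van m ⌈z⌉₊ := fun i hi => hvan i (lt_of_lt_of_le hi (Nat.ceil_le.2 hz))
          simp [hz, this]
        · simp only [hz, if_false]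
          split_ifs <;> norm_num)
  rw [← Finset.sum_filter, ← Finset.sum_filter, Finset.sum_const, Finset.sum_const, nsmul_eq_mul,
    nsmul_eq_mul, mul_one, mul_one] at h2
  have hE : Real.exp (-c * √(⌈z⌉₊ : ℝ)) ≤ Real.exp (-c * √z) := by
    apply Real.exp_le_exp.2
    have : √z ≤ √(⌈z⌉₊ : ℝ) := Real.sqrt_le_sqrt (Nat.le_ceil z)
    nlinarith
  have hl0 : 0 < Real.log X ^ (-(B : ℝ)) := Real.rpow_pos_of_pos hL0 _
  have hXc : (X : ℝ) ≤ ((Fam X).card : ℝ) / c3 := by rw [le_div_iff₀ hc3]; linarith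
  calc (((Fam X).filter (fun D => z ≤ (aRank D : ℝ))).card : ℝ)
      ≤ 4 * (((sqf X).filter (fun m => Van m ⌈z⌉₊)).card : ℝ) := h2
    _ ≤ 4 * (C * X * (Real.exp (-c * √(⌈z⌉₊ : ℝ)) + Real.log X ^ (-(B : ℝ)))) := by gcongr
    _ ≤ 4 * (C * (((Fam X).card : ℝ) / c3) *
        (Real.exp (-c * √z) + Real.log X ^ (-(B : ℝ)))) := by gcongr
    _ = _ := by ring

lemma exp_bound {c : ℝ} (hc : 0 < c) (k z : ℕ) (hz : 1 ≤ z) :
    (z : ℝ) ^ k * Real.exp (-c * √(z : ℝ)) ≤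
      ((2 * (k + 2)).factorial : ℝ) / c ^ (2 * (k + 2)) * (1 / (z : ℝ) ^ 2) := by
  have hz0 : (0 : ℝ) < z := by exact_mod_cast hz
  have h1 := Real.pow_div_factorial_le_exp (c * √(z : ℝ)) (by positivity) (2 * (k + 2))
  have h2 : (c * √(z : ℝ)) ^ (2 * (k + 2)) = c ^ (2 * (k + 2)) * (z : ℝ) ^ (k + 2) := by
    rw [mul_pow, pow_mul √(z : ℝ) 2, Real.sq_sqrt hz0.le]
  rw [h2] at h1
  rw [neg_mul, Real.exp_neg, ← div_eq_mul_inv, div_le_iff₀ (Real.exp_pos _)]
  have hf : (0 : ℝ) < (2 * (k + 2)).factorial := by exact_mod_cast Nat.factorial_pos _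
  calc (z : ℝ) ^ k = ((2 * (k + 2)).factorial : ℝ) / c ^ (2 * (k + 2)) * (1 / (z : ℝ) ^ 2) *
        (c ^ (2 * (k + 2)) * (z : ℝ) ^ (k + 2) / ((2 * (k + 2)).factorial : ℝ)) := by
        rw [pow_add]; field_simp
    _ ≤ _ := by gcongr

lemma sum_inv_sq (Z : ℕ) : ∑ z ∈ Finset.Icc 1 Z, 1 / (z : ℝ) ^ 2 ≤ 2 := by
  have h : ∀ n : ℕ, ∑ z ∈ Finset.Icc 1 (n + 1), 1 / (z : ℝ) ^ 2 ≤ 2 - 1 / (n + 1 : ℝ) := by
    intro n
    induction n with
    | zero => norm_num
    | succ n ih =>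
      rw [Finset.sum_Icc_succ_top (by omega)]
      push_cast
      have e : (1 : ℝ) / ((n : ℝ) + 1 + 1) ^ 2 ≤ 1 / ((n : ℝ) + 1) - 1 / ((n : ℝ) + 1 + 1) := by
        rw [div_sub_div _ _ (by positivity) (by positivity),
          div_le_div_iff₀ (by positivity) (by positivity)]
        nlinarith [(Nat.cast_nonneg n : (0 : ℝ) ≤ n)]
      linarith
  rcases Nat.eq_zero_or_pos Z with rfl | hZ
  · simp
  · obtain ⟨n, rfl⟩ : ∃ n, Z = n + 1 := ⟨Z - 1, by omega⟩
    have := h n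
    have h2 : 0 < 1 / (n + 1 : ℝ) := by positivity
    linarith

/-- the moments -/
theorem moments (hTl : StTl3) (hTr : StTrivRk) : ∀ k : ℕ, ∃ C : ℝ, 0 < C ∧ ∀ X : ℕ, 3 ≤ X →
    ∑ D ∈ Fam X, (aRank D : ℝ) ^ k ≤ C * ((Fam X).card : ℝ) := by
  classical
  obtain ⟨K, hK, htriv⟩ := hTr
  obtain ⟨c, hc, htail⟩ := hTl
  intro k
  obtain ⟨C, hC, htail⟩ := htail (k + 1)
  set F : ℝ := ((2 * (k + 2)).factorial : ℝ) / c ^ (2 * (k + 2)) with hF
  have hF0 : 0 < F := by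
    have : (0 : ℝ) < (2 * (k + 2)).factorial := by exact_mod_cast Nat.factorial_pos _
    positivity
  refine ⟨1 + C * (2 * F) + C * K ^ (k + 1), by positivity, fun X hX => ?_⟩
  have hL1 : 1 ≤ Real.log X := V6.log_ge_one hX
  have hL0 : 0 < Real.log X := by linarith
  have htr := htriv X hX
  have htl := htail X hX
  set L := Real.log X with hL
  set N : ℝ := ((Fam X).card : ℝ) with hN
  have hN0 : 0 ≤ N := Nat.cast_nonneg _
  set Z := ⌊K * L⌋₊ with hZ
  have hZle : (Z : ℝ) ≤ K * L := Nat.floor_le (by positivity)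
  -- pointwise bound
  have h1 : ∀ D ∈ Fam X, (aRank D : ℝ) ^ k ≤
      1 + ∑ z ∈ Finset.Icc 1 Z, if (z : ℝ) ≤ (aRank D : ℝ) then (z : ℝ) ^ k else 0 := by
    intro D hD
    obtain ⟨hfund, habs⟩ := L2.mem_Fam hD
    have h2 := htr D hfund habs
    have hnn : ∀ z ∈ Finset.Icc 1 Z,
        (0 : ℝ) ≤ if (z : ℝ) ≤ (aRank D : ℝ) then (z : ℝ) ^ k else 0 := by
      intro z _
      split_ifs <;> positivity
    rcases Nat.eq_zero_or_pos (aRank D) with h0 | h0
    · rw [h0]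
      have h3 : ((0 : ℕ) : ℝ) ^ k ≤ 1 := by
        rcases Nat.eq_zero_or_pos k with hk | hk
        · rw [hk, pow_zero]
        · rw [Nat.cast_zero, zero_pow (by omega)]; norm_num
      have h4 := Finset.sum_nonneg hnn
      rw [h0] at h4
      linarith
    · have hmem : aRank D ∈ Finset.Icc 1 Z := by
        rw [Finset.mem_Icc]
        exact ⟨h0, Nat.le_floor h2⟩
      have h3 := Finset.single_le_sum hnn hmem
      rw [if_pos le_rfl] at h3
      linarith
  -- the sum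
  have h2 : ∑ D ∈ Fam X, (aRank D : ℝ) ^ k ≤ N + ∑ z ∈ Finset.Icc 1 Z,
      (((Fam X).filter (fun D => (z : ℝ) ≤ (aRank D : ℝ))).card : ℝ) * (z : ℝ) ^ k := by
    refine (Finset.sum_le_sum h1).trans (le_of_eq ?_)
    rw [Finset.sum_add_distrib, Finset.sum_const, nsmul_eq_mul, mul_one, Finset.sum_comm]
    congr 1
    refine Finset.sum_congr rfl fun z _ => ?_
    rw [← Finset.sum_filter, Finset.sum_const, nsmul_eq_mul]
  have h3 : ∀ z ∈ Finset.Icc 1 Z,
      (((Fam X).filter (fun D => (z : ℝ) ≤ (aRank D : ℝ))).card : ℝ) * (z : ℝ) ^ k ≤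
      C * N * (F * (1 / (z : ℝ) ^ 2)) + C * N * ((K * L) ^ k * L ^ (-((k + 1 : ℕ) : ℝ))) := by
    intro z hz
    rw [Finset.mem_Icc] at hz
    have hz0 : (0 : ℝ) ≤ z := Nat.cast_nonneg _
    have e1 := htl z hz0
    have e2 := exp_bound hc k z hz.1
    have e3 : (z : ℝ) ^ k ≤ (K * L) ^ k := by
      apply pow_le_pow_left₀ hz0
      have : (z : ℝ) ≤ Z := by exact_mod_cast hz.2
      linarith
    have hl0 : 0 < L ^ (-((k + 1 : ℕ) : ℝ)) := Real.rpow_pos_of_pos hL0 _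
    calc (((Fam X).filter (fun D => (z : ℝ) ≤ (aRank D : ℝ))).card : ℝ) * (z : ℝ) ^ k
        ≤ C * N * (Real.exp (-c * √(z : ℝ)) + L ^ (-((k + 1 : ℕ) : ℝ))) * (z : ℝ) ^ k := by
          gcongr
      _ = C * N * ((z : ℝ) ^ k * Real.exp (-c * √(z : ℝ))) +
          C * N * ((z : ℝ) ^ k * L ^ (-((k + 1 : ℕ) : ℝ))) := by ring
      _ ≤ _ := by gcongr
  have h4 : ∑ z ∈ Finset.Icc 1 Z,
      (C * N * (F * (1 / (z : ℝ) ^ 2)) + C * N * ((K * L) ^ k * L ^ (-((k + 1 : ℕ) : ℝ)))) ≤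
      C * N * (2 * F) + C * N * K ^ (k + 1) := by
    rw [Finset.sum_add_distrib, ← Finset.mul_sum, ← Finset.mul_sum, Finset.sum_const, Nat.card_Icc,
      nsmul_eq_mul, Nat.add_sub_cancel]
    have e1 := sum_inv_sq Z
    have e2 : (Z : ℝ) * (C * N * ((K * L) ^ k * L ^ (-((k + 1 : ℕ) : ℝ)))) ≤
        C * N * K ^ (k + 1) := by
      have e3 : L ^ (-((k + 1 : ℕ) : ℝ)) = (L ^ (k + 1))⁻¹ := by
        rw [Real.rpow_neg hL0.le, Real.rpow_natCast]
      calc (Z : ℝ) * (C * N * ((K * L) ^ k * L ^ (-((k + 1 : ℕ) : ℝ))))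
          ≤ (K * L) * (C * N * ((K * L) ^ k * L ^ (-((k + 1 : ℕ) : ℝ)))) := by gcongr
        _ = C * N * K ^ (k + 1) := by
            rw [e3, mul_pow, pow_succ L, pow_succ K]
            field_simp
    have e4 : C * N * (F * ∑ z ∈ Finset.Icc 1 Z, 1 / (z : ℝ) ^ 2) ≤ C * N * (2 * F) := by
      have : F * ∑ z ∈ Finset.Icc 1 Z, 1 / (z : ℝ) ^ 2 ≤ 2 * F := by nlinarith
      exact mul_le_mul_of_nonneg_left this (by positivity)
    linarith
  have h5 := (Finset.sum_le_sum h3).trans h4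
  calc ∑ D ∈ Fam X, (aRank D : ℝ) ^ k ≤ N + (C * N * (2 * F) + C * N * K ^ (k + 1)) :=
        h2.trans (by linarith)
    _ = _ := by ring

/-- the density form implies the mean form, for all moments -/
theorem dens (hM : ∀ k : ℕ, ∃ C : ℝ, 0 < C ∧ ∀ X : ℕ, 3 ≤ X →
    ∑ D ∈ Fam X, (aRank D : ℝ) ^ k ≤ C * ((Fam X).card : ℝ)) (hCt : StCount)
    (hD : DensityForm) (k : ℕ) (hk : 1 ≤ k) :
    Filter.Tendsto (fun X : ℕ => (∑ D ∈ Fam X, (aRank D : ℝ) ^ k) / (Fam X).card)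
      Filter.atTop (nhds (1 / 2)) := by
  classical
  obtain ⟨C, hC, hM⟩ := hM (2 * k)
  obtain ⟨c3, hc3, hcount⟩ := hCt
  have h0 := hD 0 (by norm_num)
  have h1 := hD 1 le_rfl
  set f0 : ℕ → ℝ := fun X => (((Fam X).filter (fun D => aRank D = 0)).card : ℝ) / (Fam X).card
    with hf0
  set f1 : ℕ → ℝ := fun X => (((Fam X).filter (fun D => aRank D = 1)).card : ℝ) / (Fam X).card
    with hf1
  set T : ℕ → ℝ := fun X => 1 - f0 X - f1 X with hT
  have hT0 : Filter.Tendsto T Filter.atTop (nhds 0) := by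
    have := (tendsto_const_nhds (x := (1 : ℝ)) (f := Filter.atTop)).sub h0 |>.sub h1
    have e : (1 : ℝ) - 1 / 2 - 1 / 2 = 0 := by norm_num
    rw [e] at this
    exact this
  have hS : Filter.Tendsto (fun X => √(C * T X)) Filter.atTop (nhds 0) := by
    have := (hT0.const_mul C).sqrt
    simpa using this
  have key : ∀ X : ℕ, 3 ≤ X → f1 X ≤ (∑ D ∈ Fam X, (aRank D : ℝ) ^ k) / (Fam X).card ∧
      (∑ D ∈ Fam X, (aRank D : ℝ) ^ k) / (Fam X).card ≤ f1 X + √(C * T X) := by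
    intro X hX
    have hX3 : (3 : ℝ) ≤ X := by exact_mod_cast hX
    have hcnt := hcount X hX
    set N : ℝ := ((Fam X).card : ℝ) with hN
    have hN0 : 0 < N := lt_of_lt_of_le (by positivity) hcnt
    set F0 := (Fam X).filter (fun D => aRank D = 0) with hF0
    set F1 := (Fam X).filter (fun D => aRank D = 1) with hF1
    set F2 := (Fam X).filter (fun D => 2 ≤ aRank D) with hF2
    have hsplit : ∀ g : ℤ → ℝ, ∑ D ∈ Fam X, g D = ∑ D ∈ F0, g D + ∑ D ∈ F1, g D +
        ∑ D ∈ F2, g D := by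
      intro g
      rw [hF0, hF1, hF2, Finset.sum_filter, Finset.sum_filter, Finset.sum_filter,
        ← Finset.sum_add_distrib, ← Finset.sum_add_distrib]
      refine Finset.sum_congr rfl fun D _ => ?_
      rcases Nat.lt_or_ge (aRank D) 2 with h | h
      · have : ¬ (2 ≤ aRank D) := by omega
        rw [if_neg this]
        have h' : aRank D = 0 ∨ aRank D = 1 := by omega
        rcases h' with h' | h' <;> simp [h']
      · have e1 : aRank D ≠ 0 := by omega
        have e2 : aRank D ≠ 1 := by omega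
        simp [h, e1, e2]
    have hs0 : ∑ D ∈ F0, (aRank D : ℝ) ^ k = 0 := by
      refine Finset.sum_eq_zero fun D hD => ?_
      rw [hF0, Finset.mem_filter] at hD
      rw [hD.2, Nat.cast_zero, zero_pow (by omega)]
    have hs1 : ∑ D ∈ F1, (aRank D : ℝ) ^ k = (F1.card : ℝ) := by
      rw [Finset.card_eq_sum_ones, Nat.cast_sum]
      refine Finset.sum_congr rfl fun D hD => ?_
      rw [hF1, Finset.mem_filter] at hD
      rw [hD.2]
      simp
    have hs2 : 0 ≤ ∑ D ∈ F2, (aRank D : ℝ) ^ k := Finset.sum_nonneg fun D _ => by positivity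
    have hcards : N = (F0.card : ℝ) + F1.card + F2.card := by
      have := hsplit (fun _ => 1)
      simpa using this
    have hTX : T X = (F2.card : ℝ) / N := by
      simp only [hT, hf0, hf1]
      rw [← hF0, ← hF1, ← hN]
      have : (F2.card : ℝ) = N - F0.card - F1.card := by linarith
      rw [this]
      field_simp
    have hcs : (∑ D ∈ F2, (aRank D : ℝ) ^ k) ≤ N * √(C * T X) := by
      have e1 := Finset.sum_mul_sq_le_sq_mul_sq F2 (fun _ => (1 : ℝ)) (fun D => (aRank D : ℝ) ^ k)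
      simp only [one_mul, one_pow, Finset.sum_const, nsmul_eq_mul, mul_one] at e1
      have e2 : ∑ D ∈ F2, ((aRank D : ℝ) ^ k) ^ 2 ≤ C * N := by
        have e3 : ∑ D ∈ F2, ((aRank D : ℝ) ^ k) ^ 2 ≤ ∑ D ∈ Fam X, (aRank D : ℝ) ^ (2 * k) := by
          rw [hF2]
          refine (Finset.sum_le_sum_of_subset_of_nonneg (Finset.filter_subset _ _)
            fun _ _ _ => by positivity).trans (le_of_eq ?_)
          refine Finset.sum_congr rfl fun D _ => ?_
          rw [← pow_mul, mul_comm]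
        exact e3.trans (hM X hX)
      have e4 : (∑ D ∈ F2, (aRank D : ℝ) ^ k) ^ 2 ≤ (N * √(C * T X)) ^ 2 := by
        rw [mul_pow, Real.sq_sqrt (by rw [hTX]; positivity), hTX]
        calc (∑ D ∈ F2, (aRank D : ℝ) ^ k) ^ 2 ≤
            (F2.card : ℝ) * ∑ D ∈ F2, ((aRank D : ℝ) ^ k) ^ 2 := e1
          _ ≤ (F2.card : ℝ) * (C * N) := by gcongr
          _ = N ^ 2 * (C * ((F2.card : ℝ) / N)) := by field_simp
      exact (sq_le_sq₀ hs2 (by positivity)).1 e4
    have htot := hsplit (fun D => (aRank D : ℝ) ^ k)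
    rw [hs0, hs1, zero_add] at htot
    have hf1X : f1 X = (F1.card : ℝ) / N := rfl
    constructor
    · rw [hf1X, htot]
      gcongr
      linarith
    · rw [hf1X, htot, div_le_iff₀ hN0, add_mul, div_mul_cancel₀ _ hN0.ne']
      linarith [mul_comm N √(C * T X)]
  have hup : Filter.Tendsto (fun X => f1 X + √(C * T X)) Filter.atTop (nhds (1 / 2)) := by
    have := h1.add hS
    simpa using this
  refine tendsto_of_tendsto_of_tendsto_of_le_of_le' h1 hup ?_ ?_
  · filter_upwards [eventually_ge_atTop 3] with X hX using (key X hX).1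
  · filter_upwards [eventually_ge_atTop 3] with X hX using (key X hX).2

end Fin3

/-- Module Z -/
theorem pfFin3 (hL : Fin3.StLf) (hB : StBlock) (hV : StVan1) (hTr : StTrivRk) (hCt : StCount) :
    StFin3 :=
  have hTl := Fin3.tail hB hV hCt
  have hM := Fin3.moments hTl hTr
  ⟨hL, hTl, hM, fun hD k hk => Fin3.dens hM hCt hD k hk⟩

end P004
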