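import Vale.Agent.P004.K1
import Vale.Agent.P004.L2a

/-!
# P004, module H760/Vanish: vanishing of the logarithmic moments of `theta m`

* `Vanish.mellin_iter` : iterated derivatives of a Mellin transform of a rapidly decreasing function;
* `Vanish.integrable_log` : `theta m u * (log u)^i` is integrable on `(0,∞)`;
* `Vanish.fold` : folding of `(0, a]` to `[1/(Qm m * a), ∞)` by the functional equation;
* `pfVanish` : the logarithmic moments of order `< aRank D` vanish.
-/

open Real MeasureTheory Set Filter Asymptotics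
open scoped ENNReal Topology

namespace P004

/-- Module H : for a fundamental discriminant `D ≠ 1` and the corresponding squarefree `m`, the
completed `L`-function is the Mellin transform of `theta m`, and the logarithmic moments of
`theta m` of order less than the analytic rank vanish. -/
def StVanish : Prop :=
  ∀ D : ℤ, IsFund D → ∃ m : ℕ, 0 < m ∧ Squarefree m ∧ (D.natAbs = m ∨ D.natAbs = 4 * m) ∧
    (∀ s : ℂ, 0 < s.re → LTwist D s * (4 * Complex.Gamma s * (π : ℂ) ^ (-s)) =
      ∫ u in Ioi (0 : ℝ), (u : ℂ) ^ (s - 1) * ((theta m u : ℝ) : ℂ)) ∧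
    ∀ P : Polynomial ℝ, P.degree < (aRank D : ℕ) →
      ∫ u in Ioi (0 : ℝ), theta m u * P.eval (Real.log u) = 0

namespace Vanish

/-- locally integrable on `(0,∞)`, and smaller than every power at `0` and at `∞` -/
structure Rapid (f : ℝ → ℂ) : Prop where
  loc : LocallyIntegrableOn f (Ioi 0)
  top : ∀ r : ℝ, f =O[atTop] (fun t => t ^ (-r))
  bot : ∀ r : ℝ, f =O[𝓝[>] 0] (fun t => t ^ (-r))

lemma Rapid.log {f : ℝ → ℂ} (hf : Rapid f) : Rapid (fun t => Real.log t • f t) where
  loc := by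
    refine hf.loc.continuousOn_smul (isOpen_Ioi.isLocallyClosed) ?_
    intro t ht
    exact (Real.continuousAt_log (ne_of_gt ht)).continuousWithinAt
  top := fun r => isBigO_rpow_top_log_smul (lt_add_one r) (hf.top (r + 1))
  bot := fun r => isBigO_rpow_zero_log_smul (sub_one_lt r) (hf.bot (r - 1))

lemma Rapid.conv {f : ℝ → ℂ} (hf : Rapid f) (s : ℂ) : MellinConvergent f s :=
  mellinConvergent_of_isBigO_rpow hf.loc (hf.top (s.re + 1)) (by linarith) (hf.bot (s.re - 1))
    (by linarith)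

lemma Rapid.deriv {f : ℝ → ℂ} (hf : Rapid f) (s : ℂ) :
    HasDerivAt (mellin f) (mellin (fun t => Real.log t • f t) s) s :=
  (mellin_hasDerivAt_of_isBigO_rpow hf.loc (hf.top (s.re + 1)) (by linarith) (hf.bot (s.re - 1))
    (by linarith)).2

lemma Rapid.log_pow {f : ℝ → ℂ} (hf : Rapid f) (i : ℕ) : Rapid (fun t => Real.log t ^ i • f t) := by
  induction i with
  | zero => simpa using hf
  | succ i ih =>
    have := ih.log
    refine (congrArg Rapid ?_).mp this
    funext t
    rw [smul_smul, pow_succ']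

lemma mellin_iter {f : ℝ → ℂ} (hf : Rapid f) (i : ℕ) :
    iteratedDeriv i (mellin f) = mellin (fun t => Real.log t ^ i • f t) := by
  induction i with
  | zero => simp
  | succ i ih =>
    rw [iteratedDeriv_succ, ih]
    funext s
    rw [((hf.log_pow i).deriv s).deriv]
    congr 1
    funext t
    rw [smul_smul, pow_succ']

/-- `theta m` as a complex valued function -/
noncomputable def thc (m : ℕ) (u : ℝ) : ℂ := ((theta m u : ℝ) : ℂ)

lemma thc_top (hc : StCoef) (m : ℕ) (r : ℝ) : thc m =O[atTop] (fun t => t ^ r) := by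
  have h1 : thc m =O[atTop] fun x : ℝ => Real.exp (-Real.pi * x) := by
    apply IsBigO.of_bound K1.C0
    filter_upwards [eventually_ge_atTop (1 : ℝ)] with x hx
    unfold thc
    rw [Complex.norm_real, Real.norm_eq_abs, Real.norm_of_nonneg (Real.exp_pos _).le]
    exact K1.theta_le hc m hx
  exact h1.trans (isLittleO_exp_neg_mul_rpow_atTop Real.pi_pos r).isBigO

section

variable {m : ℕ} {κ : ℝ}

lemma thc_bot (hc : StCoef) (hm : 0 < m)
    (hfe : ∀ u : ℝ, 0 < u → theta m u = κ / (Qm m * u ^ 2) * theta m (1 / (Qm m * u)))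
    (r : ℝ) : thc m =O[𝓝[>] 0] (fun t => t ^ r) := by
  have hQ := K1.Qm_pos hm
  have h1 := thc_top hc m (-(r + 2))
  have h2 : Tendsto (fun u : ℝ => 1 / (Qm m * u)) (𝓝[>] 0) atTop := by
    have h3 : Tendsto (fun u : ℝ => (Qm m)⁻¹ * u⁻¹) (𝓝[>] 0) atTop :=
      tendsto_inv_nhdsGT_zero.const_mul_atTop (inv_pos.2 hQ)
    refine h3.congr fun u => ?_
    rw [one_div, mul_inv]
  have h4 := (h1.comp_tendsto h2)
  have h5 : (fun u : ℝ => ((κ / (Qm m * u ^ 2) : ℝ) : ℂ)) =O[𝓝[>] 0] (fun u : ℝ => u ^ (-2 : ℝ)) := by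
    apply IsBigO.of_bound (|κ| / Qm m)
    filter_upwards [self_mem_nhdsWithin] with u hu
    have hu0 : (0 : ℝ) < u := hu
    rw [Complex.norm_real, norm_div, Real.norm_eq_abs, norm_mul, Real.norm_of_nonneg hQ.le,
      Real.norm_of_nonneg (by positivity : (0 : ℝ) ≤ u ^ 2),
      Real.norm_of_nonneg (by positivity : (0 : ℝ) ≤ u ^ (-2 : ℝ)), Real.rpow_neg hu0.le,
      Real.rpow_two]
    apply le_of_eq
    field_simp
  have h6 := h5.mul h4
  have h7 : (fun u : ℝ => u ^ (-2 : ℝ) * ((fun t : ℝ => t ^ (-(r + 2))) ∘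
      fun u => 1 / (Qm m * u)) u) =O[𝓝[>] 0] (fun u : ℝ => u ^ r) := by
    apply IsBigO.of_bound (Qm m ^ (r + 2))
    filter_upwards [self_mem_nhdsWithin] with u hu
    have hu0 : (0 : ℝ) < u := hu
    have e : u ^ (-2 : ℝ) * ((fun t : ℝ => t ^ (-(r + 2))) ∘ fun u => 1 / (Qm m * u)) u =
        Qm m ^ (r + 2) * u ^ r := by
      simp only [Function.comp]
      rw [one_div, Real.inv_rpow (by positivity), ← Real.rpow_neg (by positivity), neg_neg,
        Real.mul_rpow hQ.le hu0.le, mul_left_comm, ← Real.rpow_add hu0]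
      congr 2
      ring
    rw [e, norm_mul, Real.norm_of_nonneg (by positivity : (0 : ℝ) ≤ Qm m ^ (r + 2))]
  refine (h6.trans h7).congr' ?_ EventuallyEq.rfl
  filter_upwards [self_mem_nhdsWithin] with u hu
  have hu0 : (0 : ℝ) < u := hu
  simp only [Function.comp, thc]
  rw [← Complex.ofReal_mul, ← hfe u hu0]

lemma thc_rapid (hc : StCoef) (hm : 0 < m)
    (hfe : ∀ u : ℝ, 0 < u → theta m u = κ / (Qm m * u ^ 2) * theta m (1 / (Qm m * u))) :
    Rapid (thc m) where
  loc := (Complex.continuous_ofReal.comp_continuousOn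
    (K1.continuousOn_theta hc m)).locallyIntegrableOn measurableSet_Ioi
  top := fun _ => thc_top hc m _
  bot := fun _ => thc_bot hc hm hfe _

lemma integrable_log (hc : StCoef) (hm : 0 < m)
    (hfe : ∀ u : ℝ, 0 < u → theta m u = κ / (Qm m * u ^ 2) * theta m (1 / (Qm m * u)))
    (i : ℕ) : IntegrableOn (fun u => theta m u * Real.log u ^ i) (Ioi 0) := by
  have h1 := ((thc_rapid hc hm hfe).log_pow i).conv 1
  have h2 : IntegrableOn (fun u : ℝ => ((theta m u * Real.log u ^ i : ℝ) : ℂ)) (Ioi 0) := by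
    refine h1.congr_fun (fun u _ => ?_) measurableSet_Ioi
    simp only [sub_self, Complex.cpow_zero, one_smul, thc, Complex.real_smul]
    push_cast
    ring
  have h3 := h2.re
  exact h3

lemma integrable_poly (hc : StCoef) (hm : 0 < m)
    (hfe : ∀ u : ℝ, 0 < u → theta m u = κ / (Qm m * u ^ 2) * theta m (1 / (Qm m * u)))
    (P : Polynomial ℝ) : IntegrableOn (fun u => theta m u * P.eval (Real.log u)) (Ioi 0) := by
  have h1 : ∀ u : ℝ, theta m u * P.eval (Real.log u) =
      ∑ i ∈ Finset.range (P.natDegree + 1), P.coeff i * (theta m u * Real.log u ^ i) := by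
    intro u
    rw [Polynomial.eval_eq_sum_range, Finset.mul_sum]
    exact Finset.sum_congr rfl fun i _ => by ring
  simp_rw [h1]
  exact integrable_finsetSum _ fun i _ => (integrable_log hc hm hfe i).const_mul _

lemma iter_Phi (hc : StCoef) (hm : 0 < m)
    (hfe : ∀ u : ℝ, 0 < u → theta m u = κ / (Qm m * u ^ 2) * theta m (1 / (Qm m * u)))
    (i : ℕ) : iteratedDeriv i (K1.Phi m) 1 =
      ((∫ u in Ioi (0 : ℝ), theta m u * Real.log u ^ i : ℝ) : ℂ) := by
  have h1 : K1.Phi m = mellin (thc m) := rfl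
  rw [h1, mellin_iter (thc_rapid hc hm hfe), mellin, ← integral_complex_ofReal]
  refine setIntegral_congr_fun measurableSet_Ioi fun u _ => ?_
  simp only [sub_self, Complex.cpow_zero, one_smul, thc, Complex.real_smul]
  push_cast
  ring

lemma moment_zero (hc : StCoef) (hm : 0 < m)
    (hfe : ∀ u : ℝ, 0 < u → theta m u = κ / (Qm m * u ^ 2) * theta m (1 / (Qm m * u)))
    {a : ℕ} (ha : (a : ℕ∞) ≤ analyticOrderAt (K1.Phi m) 1) {i : ℕ} (hi : i < a) :
    ∫ u in Ioi (0 : ℝ), theta m u * Real.log u ^ i = 0 := by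
  have hd : Differentiable ℂ (K1.Phi m) := fun s => ((thc_rapid hc hm hfe).deriv s).differentiableAt
  have h1 := (natCast_le_analyticOrderAt_iff_iteratedDeriv_eq_zero (hd.analyticAt 1)).1 ha i hi
  rw [iter_Phi hc hm hfe] at h1
  exact_mod_cast h1

/-- folding of `(0, a)` by the functional equation -/
lemma fold (hm : 0 < m)
    (hfe : ∀ u : ℝ, 0 < u → theta m u = κ / (Qm m * u ^ 2) * theta m (1 / (Qm m * u)))
    {a : ℝ} (ha : 0 < a) (h : ℝ → ℝ) :
    ∫ u in Ioo 0 a, theta m u * h (Real.log u) =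
      κ * ∫ u in Ioi (1 / (Qm m * a)), theta m u * h (-Real.log (Qm m) - Real.log u) := by
  have hQ := K1.Qm_pos hm
  have himg : (fun u : ℝ => 1 / (Qm m * u)) '' (Ioo 0 a) = Ioi (1 / (Qm m * a)) := by
    ext v
    constructor
    · rintro ⟨u, ⟨hu0, hua⟩, rfl⟩
      show 1 / (Qm m * a) < 1 / (Qm m * u)
      apply one_div_lt_one_div_of_lt (by positivity)
      exact mul_lt_mul_of_pos_left hua hQ
    · intro hv
      have hv' : 1 / (Qm m * a) < v := hv
      have hv0 : 0 < v := lt_trans (by positivity) hv'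
      refine ⟨1 / (Qm m * v), ⟨by positivity, ?_⟩, ?_⟩
      · rw [div_lt_iff₀ (by positivity)] at hv' ⊢
        linarith
      · simp only
        field_simp
  have hinj : InjOn (fun u : ℝ => 1 / (Qm m * u)) (Ioo 0 a) := by
    intro x hx y hy hxy
    have hx0 : 0 < x := hx.1
    have hy0 : 0 < y := hy.1
    simp only at hxy
    rw [div_eq_div_iff (by positivity) (by positivity)] at hxy
    have : Qm m * y = Qm m * x := by linarith
    exact (mul_left_cancel₀ hQ.ne' this).symm
  have hder : ∀ u ∈ Ioo 0 a, HasDerivWithinAt (fun u : ℝ => 1 / (Qm m * u))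
      (-(1 / (Qm m * u ^ 2))) (Ioo 0 a) u := by
    intro u hu
    have hu0 : 0 < u := hu.1
    have h1 : HasDerivAt (fun u : ℝ => (Qm m)⁻¹ * u⁻¹) ((Qm m)⁻¹ * (-(u ^ 2)⁻¹)) u :=
      (hasDerivAt_inv hu0.ne').const_mul _
    have e : (fun u : ℝ => 1 / (Qm m * u)) = fun u : ℝ => (Qm m)⁻¹ * u⁻¹ := by
      funext u
      rw [one_div, mul_inv]
    rw [e]
    refine (h1.congr_deriv ?_).hasDerivWithinAt
    field_simp
  have hcv := integral_image_eq_integral_abs_deriv_smul measurableSet_Ioo hder hinj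
    (fun v => theta m v * h (-Real.log (Qm m) - Real.log v))
  rw [himg] at hcv
  rw [hcv, ← integral_const_mul]
  refine setIntegral_congr_fun measurableSet_Ioo fun u hu => ?_
  have hu0 : 0 < u := hu.1
  simp only [smul_eq_mul]
  have e1 : -Real.log (Qm m) - Real.log (1 / (Qm m * u)) = Real.log u := by
    rw [one_div, Real.log_inv, Real.log_mul hQ.ne' hu0.ne']
    ring
  rw [e1, abs_neg, abs_of_pos (by positivity), hfe u hu0]
  ring

/-- the vanishing of a polynomial moment, folded at an arbitrary point `a` -/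
lemma fold_moment (hc : StCoef) (hm : 0 < m)
    (hfe : ∀ u : ℝ, 0 < u → theta m u = κ / (Qm m * u ^ 2) * theta m (1 / (Qm m * u)))
    {a : ℝ} (ha : 0 < a) (P : Polynomial ℝ) :
    ∫ u in Ioi (0 : ℝ), theta m u * P.eval (Real.log u) =
      (∫ u in Ioi a, theta m u * P.eval (Real.log u)) +
      κ * ∫ u in Ioi (1 / (Qm m * a)), theta m u * P.eval (-Real.log (Qm m) - Real.log u) := by
  have hint := integrable_poly hc hm hfe P
  have hun : Ioi (0 : ℝ) = Ioc 0 a ∪ Ioi a := (Ioc_union_Ioi_eq_Ioi ha.le).symm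
  have h1 : IntegrableOn (fun u => theta m u * P.eval (Real.log u)) (Ioc 0 a) :=
    hint.mono_set fun u hu => hu.1
  have h2 : IntegrableOn (fun u => theta m u * P.eval (Real.log u)) (Ioi a) :=
    hint.mono_set (Ioi_subset_Ioi ha.le)
  conv_lhs => rw [hun]
  rw [setIntegral_union _ measurableSet_Ioi h1 h2, integral_Ioc_eq_integral_Ioo,
    fold hm hfe ha (fun x => P.eval x), add_comm]
  exact Set.disjoint_left.2 fun x hx hx' => absurd hx.2 (not_le.2 hx')

end

end Vanish

/-- Module H -/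
theorem pfVanish (hc : StCoef) (hd : StDiv) (hfe : StFE) (hEu : StEuler) : StVanish := by
  intro D hD
  obtain ⟨m, hm, hsq, hnat, hprod⟩ := hEu D hD
  obtain ⟨κ, hκ, hκfe⟩ := hfe m hsq
  have hΦd : Differentiable ℂ (K1.Phi m) := (K1.Phi_props hc hm hκ hκfe).1
  have hL : IsLFunction D (fun s => K1.Phi m s * L2.hf s) := by
    refine ⟨hΦd.mul L2.hf_diff, fun s hs => ?_⟩
    have h6 := hprod s hs
    have h7 : K1.Phi m s * L2.hf s = ∑' n : ℕ, ((ca n * chi m n : ℝ) : ℂ) / (n : ℂ) ^ s := by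
      have h8 := (K1.Phi_series hc hd m hs).tsum_eq
      rw [tsum_mul_left] at h8
      rw [← h8]
      have := L2.hf_mul (s := s) (by linarith)
      calc 4 * Complex.Gamma s * (π : ℂ) ^ (-s) *
            (∑' n : ℕ, ((ca n * chi m n : ℝ) : ℂ) / (n : ℂ) ^ s) * L2.hf s
          = (4 * Complex.Gamma s * (π : ℂ) ^ (-s) * L2.hf s) *
            (∑' n : ℕ, ((ca n * chi m n : ℝ) : ℂ) / (n : ℂ) ^ s) := by ring
        _ = _ := by rw [this, one_mul]
    simp only [h7]
    exact h6
  have hLT := L2.LTwist_eq hL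
  have h3 : K1.Phi m 3 ≠ 0 := by
    intro h0
    have := K1.Phi_three hc hd m
    rw [h0, norm_zero] at this
    norm_num at this
  have hrank : (aRank D : ℕ∞) ≤ analyticOrderAt (K1.Phi m) 1 := by
    have hne : analyticOrderAt (fun s => K1.Phi m s * L2.hf s) 1 ≠ ⊤ :=
      L2.order_ne_top hL.entire (z := 3) (mul_ne_zero h3 (L2.hf_ne (by simp)))
    unfold aRank
    rw [hLT, Nat.cast_analyticOrderNatAt hne]
    have hm1 := analyticOrderAt_mul (hΦd.analyticAt 1) (L2.hf_diff.analyticAt 1)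
    have hm2 : analyticOrderAt L2.hf 1 = 0 :=
      (L2.hf_diff.analyticAt 1).analyticOrderAt_eq_zero.mpr (L2.hf_ne (by simp))
    rw [hm2, add_zero] at hm1
    exact le_of_eq hm1
  refine ⟨m, hm, hsq, hnat, fun s hs => ?_, fun P hP => ?_⟩
  · rw [hLT]
    have h1 := L2.hf_mul hs
    have h2 : K1.Phi m s * L2.hf s * (4 * Complex.Gamma s * (π : ℂ) ^ (-s)) = K1.Phi m s := by
      calc K1.Phi m s * L2.hf s * (4 * Complex.Gamma s * (π : ℂ) ^ (-s)) =
          K1.Phi m s * (4 * Complex.Gamma s * (π : ℂ) ^ (-s) * L2.hf s) := by ring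
        _ = _ := by rw [h1, mul_one]
    simp only [h2]
    rfl
  · have h1 : ∀ u : ℝ, theta m u * P.eval (Real.log u) =
        ∑ i ∈ Finset.range (P.natDegree + 1), P.coeff i * (theta m u * Real.log u ^ i) := by
      intro u
      rw [Polynomial.eval_eq_sum_range, Finset.mul_sum]
      exact Finset.sum_congr rfl fun i _ => by ring
    simp_rw [h1]
    rw [integral_finsetSum _ fun i _ => (Vanish.integrable_log hc hm hκfe i).const_mul _]
    refine Finset.sum_eq_zero fun i hi => ?_
    rw [integral_const_mul]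
    by_cases hi2 : i < aRank D
    · rw [Vanish.moment_zero hc hm hκfe hrank hi2, mul_zero]
    · rw [Polynomial.coeff_eq_zero_of_degree_lt, zero_mul]
      refine lt_of_lt_of_le hP ?_
      exact_mod_cast not_lt.1 hi2

end P004
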