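import Vale.Agent.P004.H503.Iface3
import Vale.Agent.P004.H760.Vanish

/-!
# P004: modules V1 and V2 (vanishing of the logarithmic moments, and the folded identity)
-/

open Real MeasureTheory Set Filter
open scoped ENNReal Topology

namespace P004

/-- Module V1 -/
theorem pfVan1 (hc : StCoef) (hd : StDiv) (hfe : StFE) (hEu : StEuler) : StVan1 := by
  intro D hD
  obtain ⟨m, hm, hsq, hnat, -, hP⟩ := pfVanish hc hd hfe hEu D hD
  refine ⟨m, hm, hsq, hnat, fun i hi => ?_⟩
  have h := hP (Polynomial.X ^ i) ?_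
  · simpa using h
  · rw [Polynomial.degree_X_pow]
    exact_mod_cast hi

namespace Vanish

lemma poly_zero (hc : StCoef) {m : ℕ} (hm : 0 < m) {κ : ℝ}
    (hfe : ∀ u : ℝ, 0 < u → theta m u = κ / (Qm m * u ^ 2) * theta m (1 / (Qm m * u)))
    {r : ℕ} (hV : Van m r) (P : Polynomial ℝ) (hP : P.degree < r) :
    ∫ u in Ioi (0 : ℝ), theta m u * P.eval (Real.log u) = 0 := by
  have h1 : ∀ u : ℝ, theta m u * P.eval (Real.log u) =
      ∑ i ∈ Finset.range (P.natDegree + 1), P.coeff i * (theta m u * Real.log u ^ i) := by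
    intro u
    rw [Polynomial.eval_eq_sum_range, Finset.mul_sum]
    exact Finset.sum_congr rfl fun i _ => by ring
  simp_rw [h1]
  rw [integral_finsetSum _ fun i _ => (integrable_log hc hm hfe i).const_mul _]
  refine Finset.sum_eq_zero fun i hi => ?_
  rw [integral_const_mul]
  by_cases hi2 : i < r
  · rw [hV i hi2, mul_zero]
  · rw [Polynomial.coeff_eq_zero_of_degree_lt, zero_mul]
    refine lt_of_lt_of_le hP ?_
    exact_mod_cast not_lt.1 hi2

end Vanish

/-- Module V2 -/
theorem pfVan2 (hc : StCoef) (hfe : StFE) : StVan2 := by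
  intro m hm hsq
  obtain ⟨κ, hκ, hκfe⟩ := hfe m hsq
  refine ⟨κ, hκ, fun r Y P hY hV hP => ?_⟩
  have hQ := K1.Qm_pos hm
  have hs : 0 < √(Qm m) := Real.sqrt_pos.2 hQ
  have hY0 : (0 : ℝ) < Y := by exact_mod_cast hY
  set P' : Polynomial ℝ := P.comp (Polynomial.X + Polynomial.C (Real.log Y)) with hP'
  have hdeg : P'.degree < r := by
    by_cases h0 : P = 0
    · rw [hP', h0, Polynomial.zero_comp, Polynomial.degree_zero]
      exact WithBot.bot_lt_coe r
    · have h1 : P.natDegree < r := (Polynomial.natDegree_lt_iff_degree_lt h0).2 hP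
      have h2 : P'.natDegree ≤ P.natDegree := by
        refine Polynomial.natDegree_comp_le.trans ?_
        rw [Polynomial.natDegree_X_add_C, mul_one]
      refine lt_of_le_of_lt Polynomial.degree_le_natDegree ?_
      exact_mod_cast lt_of_le_of_lt h2 h1
  have h0 := Vanish.poly_zero hc hm hκfe hV P' hdeg
  rw [Vanish.fold_moment hc hm hκfe (a := 1 / √(Qm m)) (by positivity) P'] at h0
  have e1 : 1 / (Qm m * (1 / √(Qm m))) = 1 / √(Qm m) := by
    have : Qm m = √(Qm m) * √(Qm m) := (Real.mul_self_sqrt hQ.le).symm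
    rw [this]
    field_simp
    rw [Real.sqrt_sq hs.le]
  rw [e1, ← integral_const_mul] at h0
  have hlog : Real.log (Y / √(Qm m)) = Real.log Y - Real.log (Qm m) / 2 := by
    rw [Real.log_div hY0.ne' hs.ne', Real.log_sqrt hQ.le]
  have hint := Vanish.integrable_poly hc hm hκfe P'
  have i1 : IntegrableOn (fun u => theta m u * P'.eval (Real.log u)) (Ioi (1 / √(Qm m))) :=
    hint.mono_set (Ioi_subset_Ioi (by positivity))
  set P'' : Polynomial ℝ := P'.comp (-Polynomial.X - Polynomial.C (Real.log (Qm m))) with hP''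
  have i2 : IntegrableOn (fun u => κ * (theta m u * P'.eval (-Real.log (Qm m) - Real.log u)))
      (Ioi (1 / √(Qm m))) := by
    have h1 := (Vanish.integrable_poly hc hm hκfe P'').mono_set
      (Ioi_subset_Ioi (by positivity : (0 : ℝ) ≤ 1 / √(Qm m)))
    refine (h1.const_mul κ).congr (Eventually.of_forall fun u => ?_)
    simp only [hP'', Polynomial.eval_comp, Polynomial.eval_sub, Polynomial.eval_neg,
      Polynomial.eval_X, Polynomial.eval_C]
    congr 3
    ring
  rw [← integral_add i1 i2] at h0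
  rw [← h0]
  refine setIntegral_congr_fun measurableSet_Ioi fun u hu => ?_
  have hu0 : 0 < u := lt_trans (by positivity : (0 : ℝ) < 1 / √(Qm m)) hu
  have hlu : Real.log (u * Y) = Real.log u + Real.log Y := Real.log_mul hu0.ne' hY0.ne'
  simp only [hP', Polynomial.eval_comp, Polynomial.eval_add, Polynomial.eval_X, Polynomial.eval_C]
  rw [hlu, hlog]
  have e2 : 2 * (Real.log Y - Real.log (Qm m) / 2) - (Real.log u + Real.log Y) =
      -Real.log (Qm m) - Real.log u + Real.log Y := by ring
  rw [e2]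
  ring

end P004
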