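import Vale.Agent.P004.All2
import Vale.Agent.P004.H760.Van
import Vale.Agent.P004.H760.Fin3

/-!
# P004: the final statement from the bound for one block, everything else assembled
-/

namespace P004

theorem final3_of_block (hB : StBlock) : StFin3 :=
  have hC : StCoef := pfStCoef
  have hD : StDiv := pfDiv
  have hFE : StFE := pfFE
  have hEu : StEuler := pfStEuler hC pfStPt
  have hT : StTriv := pfTriv hC hFE
  have hE1 : StEnt := pfEnt hC hD hFE
  have hTr : StTrivRk := pfTrivRk (pfRk hE1 hEu pfOrd hT) hT
  pfFin3 (pfLfun hE1 hEu) hB (pfVan1 hC hD hFE hEu) hTr pfCount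

end P004
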